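import Vale.Agent.P220.R2.H57.Ret
import Vale.Agent.P220.R2.H180.Sphere

/-!
# P220 (rows of helper562, complex Stiefel base): row R1, the retraction onto `QJ J`
-/

open Set Filter Topology
open scoped ContDiff

namespace Vale.Agent.P220.R2.H379.RowR1

open Vale.Agent.P220.R2.H57

/-- the complex Stiefel base: unit vectors `(x, y)` with `y` orthogonal to the complex line of `x` -/
def QJ {V : Type} [NormedAddCommGroup V] [InnerProductSpace ℝ V] (J : V ≃ₗᵢ[ℝ] V) :
    Set (WithLp 2 (V × V)) :=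
  {x | ‖x.fst‖ ^ 2 + ‖x.snd‖ ^ 2 = 1 ∧ inner ℝ x.fst x.snd = (0 : ℝ) ∧
    inner ℝ x.fst (J x.snd) = (0 : ℝ)}

section

variable {V : Type} [NormedAddCommGroup V] [InnerProductSpace ℝ V]

theorem inner_J {J : V ≃ₗᵢ[ℝ] V} (hJ : ∀ x, J (J x) = -x) (x y : V) :
    inner ℝ (J x) y = - (inner ℝ x (J y) : ℝ) := by
  have h := J.inner_map_map x (J y)
  rw [hJ, inner_neg_right] at h
  linarith

theorem inner_self_J {J : V ≃ₗᵢ[ℝ] V} (hJ : ∀ x, J (J x) = -x) (x : V) :
    inner ℝ x (J x) = (0 : ℝ) := by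
  have h := inner_J hJ x x
  rw [real_inner_comm] at h
  linarith

theorem key1 {J : V ≃ₗᵢ[ℝ] V} (hJ : ∀ x, J (J x) = -x) (x y : V) (a b t : ℝ)
    (ha : inner ℝ x y = a) (hb : inner ℝ x (J y) = b) :
    inner ℝ (x - t • (a • y + b • J y)) (y - t • (a • x - b • J x)) =
      a * (1 - t * (‖x‖ ^ 2 + ‖y‖ ^ 2) + t ^ 2 * (a ^ 2 + b ^ 2)) := by
  have e1 : inner ℝ x (J x) = (0 : ℝ) := inner_self_J hJ x
  have e2 : inner ℝ (J y) y = (0 : ℝ) := by rw [real_inner_comm]; exact inner_self_J hJ y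
  have e3 : inner ℝ y (J x) = -b := by
    rw [real_inner_comm, inner_J hJ, hb]
  have e4 : inner ℝ (J y) x = b := by rw [real_inner_comm]; exact hb
  have e5 : inner ℝ (J y) (J x) = a := by rw [J.inner_map_map, real_inner_comm]; exact ha
  have e6 : inner ℝ y x = a := by rw [real_inner_comm]; exact ha
  simp only [inner_sub_left, inner_sub_right, inner_add_left, inner_smul_left,
    inner_smul_right, real_inner_self_eq_norm_sq, ha, e1, e2, e3, e4, e5, e6, conj_trivial]
  ring

theorem key2 {J : V ≃ₗᵢ[ℝ] V} (hJ : ∀ x, J (J x) = -x) (x y : V) (a b t : ℝ)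
    (ha : inner ℝ x y = a) (hb : inner ℝ x (J y) = b) :
    inner ℝ (x - t • (a • y + b • J y)) (J (y - t • (a • x - b • J x))) =
      b * (1 - t * (‖x‖ ^ 2 + ‖y‖ ^ 2) + t ^ 2 * (a ^ 2 + b ^ 2)) := by
  have e1 : inner ℝ x (J x) = (0 : ℝ) := inner_self_J hJ x
  have e2 : inner ℝ y (J y) = (0 : ℝ) := inner_self_J hJ y
  have e3 : inner ℝ y (J x) = -b := by
    rw [real_inner_comm, inner_J hJ, hb]
  have e4 : inner ℝ (J y) x = b := by rw [real_inner_comm]; exact hb
  have e5 : inner ℝ (J y) (J x) = a := by rw [J.inner_map_map, real_inner_comm]; exact ha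
  have e6 : inner ℝ y x = a := by rw [real_inner_comm]; exact ha
  have e7 : inner ℝ (J y) (J y) = ‖y‖ ^ 2 := by
    rw [J.inner_map_map, real_inner_self_eq_norm_sq]
  simp only [map_sub, map_smul, hJ]
  simp only [inner_sub_left, inner_sub_right, inner_add_left, inner_smul_left, inner_smul_right,
    inner_neg_right, real_inner_self_eq_norm_sq, hb, e1, e2, e3, e4, e5, e6, e7, conj_trivial,
    smul_neg]
  ring

end

/-- ROW R1 -/
theorem row_ret {V : Type} [NormedAddCommGroup V] [InnerProductSpace ℝ V] [FiniteDimensional ℝ V]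
    {J : V ≃ₗᵢ[ℝ] V} (hJ : ∀ x, J (J x) = -x) :
    ∃ (U : Set (WithLp 2 (V × V))) (r : WithLp 2 (V × V) → WithLp 2 (V × V)),
      IsRet (QJ J) U r := by
  obtain ⟨G, hG, hG1⟩ := H180.exists_invsqrt
  set P := WithLp 2 (V × V) with hP
  have sfst : ContDiff ℝ ∞ (fun z : P => z.fst) :=
    ((ContinuousLinearMap.fst ℝ V V).comp
      (WithLp.prodContinuousLinearEquiv 2 ℝ V V).toContinuousLinearMap).contDiff
  have ssnd : ContDiff ℝ ∞ (fun z : P => z.snd) :=
    ((ContinuousLinearMap.snd ℝ V V).comp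
      (WithLp.prodContinuousLinearEquiv 2 ℝ V V).toContinuousLinearMap).contDiff
  have sJ : ContDiff ℝ ∞ (J : V → V) := J.toContinuousLinearEquiv.contDiff
  set a : P → ℝ := fun z => inner ℝ z.fst z.snd with ha
  set b : P → ℝ := fun z => inner ℝ z.fst (J z.snd) with hb
  set N : P → ℝ := fun z => ‖z.fst‖ ^ 2 + ‖z.snd‖ ^ 2 with hN
  have sa : ContDiff ℝ ∞ a := sfst.inner ℝ ssnd
  have sb : ContDiff ℝ ∞ b := sfst.inner ℝ (sJ.comp ssnd)
  have sN : ContDiff ℝ ∞ N := (sfst.norm_sq ℝ).add (ssnd.norm_sq ℝ)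
  set D : P → ℝ := fun z => N z ^ 2 - 4 * (a z ^ 2 + b z ^ 2) with hD
  have sD : ContDiff ℝ ∞ D :=
    (sN.pow 2).sub (contDiff_const.mul ((sa.pow 2).add (sb.pow 2)))
  set S : P → ℝ := fun z => D z * G (D z) with hS
  have sS : ContDiff ℝ ∞ S := sD.mul (hG.comp sD)
  set t : P → ℝ := fun z => 2 * G (N z + S z) ^ 2 with ht
  have st : ContDiff ℝ ∞ t := contDiff_const.mul ((hG.comp (sN.add sS)).pow 2)
  set X : P → V := fun z => z.fst - t z • (a z • z.snd + b z • J z.snd) with hX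
  set Y : P → V := fun z => z.snd - t z • (a z • z.fst - b z • J z.fst) with hY
  have sX : ContDiff ℝ ∞ X :=
    sfst.sub (st.smul ((sa.smul ssnd).add (sb.smul (sJ.comp ssnd))))
  have sY : ContDiff ℝ ∞ Y :=
    ssnd.sub (st.smul ((sa.smul sfst).sub (sb.smul (sJ.comp sfst))))
  set M : P → ℝ := fun z => ‖X z‖ ^ 2 + ‖Y z‖ ^ 2 with hM
  have sM : ContDiff ℝ ∞ M := (sX.norm_sq ℝ).add (sY.norm_sq ℝ)
  set r : P → P := fun z => WithLp.toLp 2 (G (M z) • X z, G (M z) • Y z) with hr
  have sr : ContDiff ℝ ∞ r :=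
    (WithLp.prodContinuousLinearEquiv 2 ℝ V V).symm.contDiff.comp
      (((hG.comp sM).smul sX).prodMk ((hG.comp sM).smul sY))
  refine ⟨{z | 1 / 4 < D z ∧ 1 / 4 < N z + S z ∧ 1 / 4 < M z}, r, ?_, ?_, ?_, sr, ?_, ?_⟩
  · have e : QJ J = {z | N z = 1} ∩ ({z | a z = 0} ∩ {z | b z = 0}) := rfl
    rw [e]
    exact (isClosed_eq sN.continuous continuous_const).inter
      ((isClosed_eq sa.continuous continuous_const).inter
        (isClosed_eq sb.continuous continuous_const))
  · exact (isOpen_lt continuous_const sD.continuous).inter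
      ((isOpen_lt continuous_const (sN.continuous.add sS.continuous)).inter
        (isOpen_lt continuous_const sM.continuous))
  · rintro z ⟨h1, h2, h3⟩
    have h1' : N z = 1 := h1
    have h2' : a z = 0 := h2
    have h3' : b z = 0 := h3
    have hDz : D z = 1 := by simp only [hD, h1', h2', h3']; norm_num
    have hSz : S z = 1 := by
      simp only [hS, hDz]
      rw [hG1 1 (by norm_num)]
      simp
    have hXz : X z = z.fst := by simp [hX, h2', h3']
    have hYz : Y z = z.snd := by simp [hY, h2', h3']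
    have hMz : M z = 1 := by
      simp only [hM, hXz, hYz]
      exact h1
    refine ⟨?_, ?_, ?_⟩
    · rw [hDz]; norm_num
    · rw [h1', hSz]; norm_num
    · rw [hMz]; norm_num
  · rintro z ⟨h1, h2, h3⟩
    -- the value of `t`
    have hD0 : 0 < D z := by linarith
    have hSz : S z = √(D z) := by
      simp only [hS]
      rw [hG1 _ h1.le]
      have : 0 < √(D z) := Real.sqrt_pos.2 hD0
      field_simp
      exact (Real.sq_sqrt hD0.le).symm
    have hS2 : S z ^ 2 = D z := by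
      rw [hSz]
      exact Real.sq_sqrt hD0.le
    have hNS : 0 < N z + S z := by linarith
    have htz : t z = 2 / (N z + S z) := by
      simp only [ht]
      rw [hG1 _ h2.le, inv_pow, Real.sq_sqrt hNS.le]
      ring
    have hzero : 1 - t z * N z + t z ^ 2 * (a z ^ 2 + b z ^ 2) = 0 := by
      have h4 : a z ^ 2 + b z ^ 2 = (N z ^ 2 - S z ^ 2) / 4 := by
        rw [hS2]
        simp only [hD]
        ring
      rw [htz, h4]
      field_simp
      ring
    have k1 : inner ℝ (X z) (Y z) = (0 : ℝ) := by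
      have := key1 hJ z.fst z.snd (a z) (b z) (t z) rfl rfl
      rw [show (‖z.fst‖ ^ 2 + ‖z.snd‖ ^ 2) = N z from rfl, hzero, mul_zero] at this
      exact this
    have k2 : inner ℝ (X z) (J (Y z)) = (0 : ℝ) := by
      have := key2 hJ z.fst z.snd (a z) (b z) (t z) rfl rfl
      rw [show (‖z.fst‖ ^ 2 + ‖z.snd‖ ^ 2) = N z from rfl, hzero, mul_zero] at this
      exact this
    have hM0 : 0 < M z := by linarith
    refine ⟨?_, ?_, ?_⟩
    · show ‖G (M z) • X z‖ ^ 2 + ‖G (M z) • Y z‖ ^ 2 = 1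
      rw [norm_smul, norm_smul, mul_pow, mul_pow, ← mul_add, hG1 _ h3.le]
      have : (‖X z‖ ^ 2 + ‖Y z‖ ^ 2) = M z := rfl
      rw [this, Real.norm_eq_abs, sq_abs, inv_pow, Real.sq_sqrt hM0.le]
      exact inv_mul_cancel₀ hM0.ne'
    · show inner ℝ (G (M z) • X z) (G (M z) • Y z) = (0 : ℝ)
      rw [inner_smul_left, inner_smul_right, k1]
      simp
    · show inner ℝ (G (M z) • X z) (J (G (M z) • Y z)) = (0 : ℝ)
      rw [map_smul, inner_smul_left, inner_smul_right, k2]
      simp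
  · rintro z ⟨h1, h2, h3⟩
    have h2' : a z = 0 := h2
    have h3' : b z = 0 := h3
    have hXz : X z = z.fst := by simp [hX, h2', h3']
    have hYz : Y z = z.snd := by simp [hY, h2', h3']
    have hMz : M z = 1 := by
      simp only [hM, hXz, hYz]
      exact h1
    show WithLp.toLp 2 (G (M z) • X z, G (M z) • Y z) = z
    rw [hMz, hG1 1 (by norm_num), hXz, hYz, Real.sqrt_one, inv_one, one_smul, one_smul]
    rfl

end Vale.Agent.P220.R2.H379.RowR1
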